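import Vale.Agent.H61.P227.BlockStretch

/-!
# P227 (logarithmic Brunn-Minkowski): a body and its diagonal stretch

For a compact set `K ⊆ ℝ^n` (for instance an origin-symmetric convex body) that is invariant
under all coordinate sign changes which are constant on the level sets of a positive vector `d`,
and for `L = diag(d) K`, the logarithmic Brunn-Minkowski inequality
`|K|^(1-lam) * |L|^lam ≤ |(1-lam) K +_0 lam L|` holds for all `0 ≤ lam ≤ 1`.
-/

open MeasureTheory

namespace Vale.Agent.Results.P227.A_DiagStretch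

open Vale.Agent.H61.P227

theorem result (n : ℕ) (K : Set (Fin n → ℝ)) (hK : IsCompact K)
    (d : Fin n → ℝ) (hd : ∀ i, 0 < d i)
    (hsym : ∀ ε : Fin n → ℝ, (∀ i, ε i = 1 ∨ ε i = -1) → (∀ i j, d i = d j → ε i = ε j) →
      ∀ x ∈ K, (fun i => ε i * x i) ∈ K)
    (lam : ℝ) (h0 : 0 ≤ lam) (h1 : lam ≤ 1) :
    (volume K).toReal ^ (1 - lam) *
        (volume ((fun y : Fin n → ℝ => fun i => d i * y i) '' K)).toReal ^ lam ≤
      (volume (logSum lam K ((fun y : Fin n → ℝ => fun i => d i * y i) '' K))).toReal :=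
  logBM_diag_stretch K hK d hd hsym lam h0 h1

end Vale.Agent.Results.P227.A_DiagStretch
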