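import Vale.Agent.H61.P227.Slice

/-!
# P227 (logarithmic Brunn-Minkowski): reduction to hyperplane sections

`ℝ^n` is `Fin n → ℝ`, `sect K s = {y | (s, y) ∈ K}` is the section of `K ⊆ ℝ^(n+1)` at height `s`
of the first coordinate, and `logSum lam K L = (1-lam) K +_0 lam L`.

1. If `K, L ⊆ ℝ^(n+1)` are compact, origin-symmetric and symmetric under `x_0 ↦ -x_0`, and every
   pair of sections `sect K s`, `sect L t` with `s, t > 0` satisfies the logarithmic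
   Brunn-Minkowski inequality in `ℝ^n`, then `K, L` satisfy it in `ℝ^(n+1)`.
2. In particular the inequality holds, with no further hypothesis, when all these sections are
   empty or nonnegative dilates of one compact origin-symmetric set `M ⊆ ℝ^n`.
-/

open MeasureTheory Set Pointwise

namespace Vale.Agent.Results.P227.B_SliceReduction

open Vale.Agent.H61.P227

theorem result :
    (∀ (n : ℕ) (lam : ℝ) (K L : Set (Fin (n + 1) → ℝ)), 0 < lam → lam < 1 →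
      IsCompact K → IsCompact L → (∀ x ∈ K, -x ∈ K) → (∀ x ∈ L, -x ∈ L) →
      (∀ (s : ℝ) (y : Fin n → ℝ), (Fin.cons s y : Fin (n + 1) → ℝ) ∈ K →
        (Fin.cons (-s) y : Fin (n + 1) → ℝ) ∈ K) →
      (∀ (s : ℝ) (y : Fin n → ℝ), (Fin.cons s y : Fin (n + 1) → ℝ) ∈ L →
        (Fin.cons (-s) y : Fin (n + 1) → ℝ) ∈ L) →
      (∀ s t : ℝ, 0 < s → 0 < t →
        volume (sect K s) ^ (1 - lam) * volume (sect L t) ^ lam ≤
          volume (logSum lam (sect K s) (sect L t))) →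
      volume K ^ (1 - lam) * volume L ^ lam ≤ volume (logSum lam K L)) ∧
    (∀ (n : ℕ) (lam : ℝ) (M : Set (Fin n → ℝ)) (K L : Set (Fin (n + 1) → ℝ)),
      0 < lam → lam < 1 → IsCompact M → (∀ x ∈ M, -x ∈ M) →
      IsCompact K → IsCompact L → (∀ x ∈ K, -x ∈ K) → (∀ x ∈ L, -x ∈ L) →
      (∀ (s : ℝ) (y : Fin n → ℝ), (Fin.cons s y : Fin (n + 1) → ℝ) ∈ K →
        (Fin.cons (-s) y : Fin (n + 1) → ℝ) ∈ K) →
      (∀ (s : ℝ) (y : Fin n → ℝ), (Fin.cons s y : Fin (n + 1) → ℝ) ∈ L →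
        (Fin.cons (-s) y : Fin (n + 1) → ℝ) ∈ L) →
      (∀ s : ℝ, 0 < s → sect K s = ∅ ∨ ∃ a : ℝ, 0 ≤ a ∧ sect K s = a • M) →
      (∀ s : ℝ, 0 < s → sect L s = ∅ ∨ ∃ b : ℝ, 0 ≤ b ∧ sect L s = b • M) →
      volume K ^ (1 - lam) * volume L ^ lam ≤ volume (logSum lam K L)) :=
  ⟨fun _ _ _ _ h0 h1 hK hL hKs hLs hKr hLr hsec =>
      logBM_of_sections h0 h1 hK hL hKs hLs hKr hLr hsec,
    fun _ _ _ _ _ h0 h1 hM hMs hK hL hKs hLs hKr hLr hKM hLM =>
      logBM_homothetic_sections h0 h1 hM hMs hK hL hKs hLs hKr hLr hKM hLM⟩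

end Vale.Agent.Results.P227.B_SliceReduction
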