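import Vale.Agent.H61.P227.Rev

/-!
# P227 (logarithmic Brunn-Minkowski): pairs unconditional in `k` coordinates over a common base

`ℝ^(m+k)` is `Fin (m + k) → ℝ`.  For `s : Fin k → ℝ` and `y : Fin m → ℝ` the point
`(s, y) = (s_0, …, s_(k-1), y_0, …, y_(m-1))` is `fun i => Fin.append s y (Fin.cast _ i)`, so the
first `k` coordinates (the indices `i` with `(i : ℕ) < k`) are `s` and the last `m` are `y`.

Let `M ⊆ ℝ^m` be compact and origin-symmetric, and let `K, L ⊆ ℝ^(m+k)` be compact sets such that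
each of them is invariant under the sign change of each of the first `k` coordinates and has every
section `{y | (s, y) ∈ K}`, `s ∈ ℝ^k`, empty or equal to a dilate `a • M` with `a ≥ 0`.  Then
`|K|^(1-lam) |L|^lam ≤ |(1-lam) K +_0 lam L|` for every `0 < lam < 1`.

For `m = 1`, `M = [-1, 1]` these are the unconditional sets with interval sections (in particular
all unconditional convex bodies); for a general origin-symmetric convex body `M` the class contains
the bodies `{(s, y) | (|s_0|, …, |s_(k-1)|, ‖y‖_M) ∈ P}`, `P` an unconditional convex body.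
-/

open MeasureTheory Set Pointwise

namespace Vale.Agent.Results.P227.C_UnconditionalOverBase

open Vale.Agent.H61.P227

theorem result (m k : ℕ) (lam : ℝ) (h0 : 0 < lam) (h1 : lam < 1)
    (M : Set (Fin m → ℝ)) (hM : IsCompact M) (hMs : ∀ x ∈ M, -x ∈ M)
    (K L : Set (Fin (m + k) → ℝ)) (hK : IsCompact K) (hL : IsCompact L)
    (hKu : ∀ x ∈ K, ∀ i : Fin (m + k), (i : ℕ) < k → Function.update x i (-(x i)) ∈ K)
    (hLu : ∀ x ∈ L, ∀ i : Fin (m + k), (i : ℕ) < k → Function.update x i (-(x i)) ∈ L)
    (hKM : ∀ s : Fin k → ℝ,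
      {y : Fin m → ℝ |
          (fun i : Fin (m + k) => Fin.append s y (Fin.cast (Nat.add_comm m k) i)) ∈ K} = ∅ ∨
        ∃ a : ℝ, 0 ≤ a ∧
          {y : Fin m → ℝ |
            (fun i : Fin (m + k) => Fin.append s y (Fin.cast (Nat.add_comm m k) i)) ∈ K} = a • M)
    (hLM : ∀ s : Fin k → ℝ,
      {y : Fin m → ℝ |
          (fun i : Fin (m + k) => Fin.append s y (Fin.cast (Nat.add_comm m k) i)) ∈ L} = ∅ ∨
        ∃ b : ℝ, 0 ≤ b ∧
          {y : Fin m → ℝ |
            (fun i : Fin (m + k) => Fin.append s y (Fin.cast (Nat.add_comm m k) i)) ∈ L} = b • M) :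
    volume K ^ (1 - lam) * volume L ^ lam ≤ volume (logSum lam K L) :=
  logBM_rev hM hMs h0 h1 k K L hK hL (And.intro hKu hKM) (And.intro hLu hLM)

end Vale.Agent.Results.P227.C_UnconditionalOverBase
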