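import Vale.Agent.H61.P227.Rev

/-!
# P227 (logarithmic Brunn-Minkowski): the results proved here, in one statement

`ℝ^n` is `Fin n → ℝ`, `|.|` is Lebesgue measure and `logSum lam K L = (1-lam) K +_0 lam L`.
Write `LBM(K, L)` for `|K|^(1-lam) |L|^lam ≤ |(1-lam) K +_0 lam L|`.

1. `LBM(K, DK)` for `0 ≤ lam ≤ 1`, a compact `K ⊆ ℝ^n` and a positive diagonal matrix
   `D = diag(d)` such that `K` is invariant under every coordinate sign change that is constant on
   the level sets of `d`.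
2. `LBM(K, L)` for `0 < lam < 1` and compact `K, L ⊆ ℝ^(m+k)` that are invariant under the sign
   change of each of the first `k` coordinates and have every section `{y | (s, y) ∈ K}`,
   `s ∈ ℝ^k`, empty or equal to a dilate `a • M`, `a ≥ 0`, of one compact origin-symmetric
   `M ⊆ ℝ^m`; here `(s, y)` is `fun i => Fin.append s y (Fin.cast _ i)`.
3. For `0 < lam < 1` and compact origin-symmetric `K, L ⊆ ℝ^(n+1)` that are symmetric under
   `x_0 ↦ -x_0`: if `LBM(K_s, L_t)` holds in `ℝ^n` for all sections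
   `K_s = {y | (s, y) ∈ K}`, `L_t`, `s, t > 0`, then `LBM(K, L)`; here `(s, y)` is `Fin.cons s y`.
-/

open MeasureTheory Set Pointwise

namespace Vale.Agent.Results.P227.D_CombinedClasses

open Vale.Agent.H61.P227

theorem result :
    (∀ (n : ℕ) (K : Set (Fin n → ℝ)) (d : Fin n → ℝ) (lam : ℝ), IsCompact K →
      (∀ i, 0 < d i) →
      (∀ ε : Fin n → ℝ, (∀ i, ε i = 1 ∨ ε i = -1) → (∀ i j, d i = d j → ε i = ε j) →
        ∀ x ∈ K, (fun i => ε i * x i) ∈ K) →
      0 ≤ lam → lam ≤ 1 →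
      (volume K).toReal ^ (1 - lam) *
          (volume ((fun y : Fin n → ℝ => fun i => d i * y i) '' K)).toReal ^ lam ≤
        (volume (logSum lam K ((fun y : Fin n → ℝ => fun i => d i * y i) '' K))).toReal) ∧
    (∀ (m k : ℕ) (lam : ℝ) (M : Set (Fin m → ℝ)) (K L : Set (Fin (m + k) → ℝ)),
      0 < lam → lam < 1 → IsCompact M → (∀ x ∈ M, -x ∈ M) → IsCompact K → IsCompact L →
      (∀ x ∈ K, ∀ i : Fin (m + k), (i : ℕ) < k → Function.update x i (-(x i)) ∈ K) →
      (∀ x ∈ L, ∀ i : Fin (m + k), (i : ℕ) < k → Function.update x i (-(x i)) ∈ L) →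
      (∀ s : Fin k → ℝ,
        {y : Fin m → ℝ |
            (fun i : Fin (m + k) => Fin.append s y (Fin.cast (Nat.add_comm m k) i)) ∈ K} = ∅ ∨
          ∃ a : ℝ, 0 ≤ a ∧
            {y : Fin m → ℝ |
              (fun i : Fin (m + k) => Fin.append s y (Fin.cast (Nat.add_comm m k) i)) ∈ K} =
                a • M) →
      (∀ s : Fin k → ℝ,
        {y : Fin m → ℝ |
            (fun i : Fin (m + k) => Fin.append s y (Fin.cast (Nat.add_comm m k) i)) ∈ L} = ∅ ∨
          ∃ b : ℝ, 0 ≤ b ∧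
            {y : Fin m → ℝ |
              (fun i : Fin (m + k) => Fin.append s y (Fin.cast (Nat.add_comm m k) i)) ∈ L} =
                b • M) →
      volume K ^ (1 - lam) * volume L ^ lam ≤ volume (logSum lam K L)) ∧
    (∀ (n : ℕ) (lam : ℝ) (K L : Set (Fin (n + 1) → ℝ)), 0 < lam → lam < 1 →
      IsCompact K → IsCompact L → (∀ x ∈ K, -x ∈ K) → (∀ x ∈ L, -x ∈ L) →
      (∀ (s : ℝ) (y : Fin n → ℝ), (Fin.cons s y : Fin (n + 1) → ℝ) ∈ K →
        (Fin.cons (-s) y : Fin (n + 1) → ℝ) ∈ K) →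
      (∀ (s : ℝ) (y : Fin n → ℝ), (Fin.cons s y : Fin (n + 1) → ℝ) ∈ L →
        (Fin.cons (-s) y : Fin (n + 1) → ℝ) ∈ L) →
      (∀ s t : ℝ, 0 < s → 0 < t →
        volume {y : Fin n → ℝ | (Fin.cons s y : Fin (n + 1) → ℝ) ∈ K} ^ (1 - lam) *
            volume {y : Fin n → ℝ | (Fin.cons t y : Fin (n + 1) → ℝ) ∈ L} ^ lam ≤
          volume (logSum lam {y : Fin n → ℝ | (Fin.cons s y : Fin (n + 1) → ℝ) ∈ K}
            {y : Fin n → ℝ | (Fin.cons t y : Fin (n + 1) → ℝ) ∈ L})) →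
      volume K ^ (1 - lam) * volume L ^ lam ≤ volume (logSum lam K L)) :=
  ⟨fun _ K d lam hK hd hsym h0 h1 => logBM_diag_stretch K hK d hd hsym lam h0 h1,
    fun _ k _ _ K L h0 h1 hM hMs hK hL hKu hLu hKM hLM =>
      logBM_rev hM hMs h0 h1 k K L hK hL (And.intro hKu hKM) (And.intro hLu hLM),
    fun _ _ _ _ h0 h1 hK hL hKs hLs hKr hLr hsec =>
      logBM_of_sections h0 h1 hK hL hKs hLs hKr hLr hsec⟩

end Vale.Agent.Results.P227.D_CombinedClasses
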